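import Vale.Agent.P067.Main

/-! P067: bounded-degree `F_2`-coboundary expanders exist in every dimension. -/

namespace Vale.Agent.Results.P067.Cobound
open Vale.Agent.P067

theorem result : ∀ d : ℕ, 1 ≤ d →
    ∃ (D : ℕ) (ε : ℝ), 0 < ε ∧ ∃ Y : ℕ → Cx,
      Filter.Tendsto (fun m => ((Y m).X 0).card) Filter.atTop Filter.atTop ∧
      ∀ m, (Y m).Pure d ∧ (Y m).Connected ∧ (Y m).DegLe d D ∧ (Y m).Expander d ε :=
  main

end Vale.Agent.Results.P067.Cobound
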